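import Mathlib
import Vale.Agent.Lib.P037.Defs
import Vale.Agent.Lib.P037.Rest

/-!
# P037: the case k = 2 of question Q1

For every binary 2 x 2 pattern `H` (all sixteen of them, no side condition) the polynomial ordered
removal bound of question Q1 holds.  The ten patterns with two different rows and two different
columns are treated in `Vale.Agent.Lib.P037.Combined`; the six patterns with two equal rows or two
equal columns are proved directly in `Vale.Agent.Lib.P037.Rest`, so the proof is self-contained.
-/

namespace Vale.Agent.Results.P037.AllTwoByTwo

open Vale.Agent.Lib.P037

theorem result : ∀ H : Fin 2 → Fin 2 → Bool, PolyRemoval H :=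
  fun H => all_two_by_two H

end Vale.Agent.Results.P037.AllTwoByTwo
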