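import Mathlib
import Vale.Agent.Lib.P037.Defs
import Vale.Agent.Lib.P037.Rest
import Vale.Agent.Lib.P037B.Defs
import Vale.Agent.Lib.P037B.Blow

/-!
# P037: blow-ups of patterns, and all patterns made of at most 2 x 2 constant blocks

(1) The polynomial removal property (stated for rectangular patterns) is preserved when rows and
columns of the pattern are repeated: if `H` has it, so has `(i, j) ↦ H (φ i) (ψ j)` for all
monotone surjections `φ`, `ψ`.
(2) In particular this holds for square patterns and the property `PolyRemoval` of question Q1.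
(3) For every `k ≥ 2`, every `k × k` pattern that is constant on the four blocks cut out by one
horizontal and one vertical line (blocks may be empty) has the property `PolyRemoval`.
-/

namespace Vale.Agent.Results.P037.BlockPatterns

open Vale.Agent.Lib.P037 Vale.Agent.Lib.P037B

/-- a monotone map into `Fin 2` may be replaced by a monotone surjection -/
theorem normalise {k : ℕ} (hk : 2 ≤ k) {α : Type*} (G : Fin 2 → α) (φ : Fin k → Fin 2)
    (hφ : Monotone φ) : ∃ (G' : Fin 2 → α) (φ' : Fin k → Fin 2), Monotone φ' ∧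
      Function.Surjective φ' ∧ ∀ i, G (φ i) = G' (φ' i) := by
  by_cases hs : Function.Surjective φ
  · exact ⟨G, φ, hφ, hs, fun _ => rfl⟩
  · have hex : ∃ b, ∀ a, φ a ≠ b := by
      unfold Function.Surjective at hs
      simp only [not_forall, not_exists] at hs
      exact hs
    obtain ⟨b, hb⟩ := hex
    have hconst : ∀ a a', φ a = φ a' := by
      intro a a'
      have h1 := hb a
      have h2 := hb a'
      have h3 := (φ a).2
      have h4 := (φ a').2
      have h5 := b.2
      apply Fin.ext
      have h1' : (φ a).val ≠ b.val := fun h => h1 (Fin.ext h)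
      have h2' : (φ a').val ≠ b.val := fun h => h2 (Fin.ext h)
      omega
    refine ⟨fun _ => G (φ ⟨0, by omega⟩), fun i => if i.val = 0 then 0 else 1, ?_, ?_, ?_⟩
    · intro a a' haa
      have : a.val ≤ a'.val := haa
      by_cases h1 : a.val = 0
      · simp [h1]
      · have h2 : a'.val ≠ 0 := by omega
        simp [h1, h2]
    · intro y
      rcases Fin.exists_fin_two.mp ⟨y, rfl⟩ with h | h
      · exact ⟨⟨0, by omega⟩, by simp [← h]⟩
      · exact ⟨⟨1, by omega⟩, by simp [← h]⟩
    · intro i
      exact congrArg G (hconst _ _)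

theorem result :
    (∀ (k l k' l' : ℕ) (H : Fin k → Fin l → Bool) (φ : Fin k' → Fin k) (ψ : Fin l' → Fin l),
      Monotone φ → Function.Surjective φ → Monotone ψ → Function.Surjective ψ →
      PolyRemovalR H → PolyRemovalR (fun i j => H (φ i) (ψ j))) ∧
    (∀ (k k' : ℕ) (H : Fin k → Fin k → Bool) (φ ψ : Fin k' → Fin k),
      Monotone φ → Function.Surjective φ → Monotone ψ → Function.Surjective ψ →
      PolyRemoval H → PolyRemoval (fun i j => H (φ i) (ψ j))) ∧
    (∀ (k : ℕ) (H : Fin k → Fin k → Bool), 2 ≤ k →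
      (∃ (H0 : Fin 2 → Fin 2 → Bool) (φ ψ : Fin k → Fin 2), Monotone φ ∧ Monotone ψ ∧
        ∀ i j, H i j = H0 (φ i) (ψ j)) → PolyRemoval H) := by
  have part2 : ∀ (k k' : ℕ) (H : Fin k → Fin k → Bool) (φ ψ : Fin k' → Fin k),
      Monotone φ → Function.Surjective φ → Monotone ψ → Function.Surjective ψ →
      PolyRemoval H → PolyRemoval (fun i j => H (φ i) (ψ j)) := by
    intro k k' H φ ψ h1 h2 h3 h4 h
    rw [← square_iff] at h ⊢
    exact PolyRemovalR.blowup H φ ψ h1 h2 h3 h4 h
  refine ⟨fun k l k' l' H φ ψ h1 h2 h3 h4 h => PolyRemovalR.blowup H φ ψ h1 h2 h3 h4 h,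
    part2, ?_⟩
  rintro k H hk ⟨H0, φ, ψ, hφ, hψ, hH⟩
  obtain ⟨G1, φ', hφ', hφs, h1⟩ := normalise hk H0 φ hφ
  obtain ⟨G2, ψ', hψ', hψs, h2⟩ := normalise hk (fun j i => G1 i j) ψ hψ
  have h3 := part2 2 k (fun i j => G2 j i) φ' ψ' hφ' hφs hψ' hψs (all_two_by_two _)
  have e : H = fun i j => G2 (ψ' j) (φ' i) := by
    funext i j
    rw [hH, h1, ← h2]
  rw [e]
  exact h3

end Vale.Agent.Results.P037.BlockPatterns
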