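import Mathlib
import Vale.Agent.Lib.P037.Defs
import Vale.Agent.Lib.P037I.Final

/-!
# P037: polynomial removal for all 2 x 2 patterns with distinct rows and distinct columns

The polynomial ordered removal bound of question Q1 holds for every binary 2 x 2 pattern whose two
rows are different and whose two columns are different: the two permutation patterns
(identity and anti-identity, exponent 19) and the eight patterns with an odd number of ones.
These are exactly the 2 x 2 patterns that are closed neither under row permutations nor under
column permutations.
-/

namespace Vale.Agent.Results.P037.DistinctTwoByTwo

open Vale.Agent.Lib.P037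

theorem result : ∀ H : Fin 2 → Fin 2 → Bool, H 0 ≠ H 1 → (fun i => H i 0) ≠ (fun i => H i 1) →
    PolyRemoval H :=
  fun H hr hc => Vale.Agent.Lib.P037I.all_distinct H hr hc

end Vale.Agent.Results.P037.DistinctTwoByTwo
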