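import Mathlib
import Vale.Agent.Lib.P037.Defs
import Vale.Agent.Lib.P037.Combined

/-!
# P037: polynomial removal for every 2 x 2 pattern with two different rows and two different columns

These are the ten binary 2 x 2 patterns that are invariant neither under the swap of the two rows
nor under the swap of the two columns: the eight patterns with an odd number of ones and the two
permutation patterns.  For each of them the polynomial ordered removal bound of question Q1 holds.
-/

namespace Vale.Agent.Results.P037.NonInvariantTwoByTwo

open Vale.Agent.Lib.P037

theorem result : ∀ H : Fin 2 → Fin 2 → Bool, H 0 ≠ H 1 → (fun i => H i 0) ≠ (fun i => H i 1) →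
    PolyRemoval H :=
  fun H hr hc => all_noninvariant H hr hc

end Vale.Agent.Results.P037.NonInvariantTwoByTwo
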