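import Mathlib
import Vale.Agent.Lib.P037.Defs
import Vale.Agent.Lib.P037.Final

/-!
# P037: polynomial removal for the 2 x 2 patterns with an odd number of ones

For each of the eight binary 2 x 2 patterns having exactly one entry different from the other
three, the polynomial ordered removal bound of question Q1 holds (with exponent 14).
-/

namespace Vale.Agent.Results.P037.OddTwoByTwo

open Vale.Agent.Lib.P037

theorem result : ∀ (i0 j0 : Fin 2) (v : Bool),
    PolyRemoval (fun i j : Fin 2 => if i = i0 ∧ j = j0 then !v else v) :=
  fun i0 j0 v => all_odd i0 j0 v

end Vale.Agent.Results.P037.OddTwoByTwo
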